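import Vale.Agent.P146.R2.H729.TrDef
import Vale.Agent.P146.R3.H597.Exact

/-!
# P146: the lower half of the lower tail is `o(s²)`: the probabilistic rows
-/

open MeasureTheory ProbabilityTheory Matrix Filter Topology
open scoped Matrix.Norms.L2Operator

namespace Vale.Agent.P146.R2.H729.Tr

open Vale.Agent.P166 Vale.Agent.P146 Vale.Agent.P146.H605 Vale.Agent.P146.R3
open Vale.Agent.P146.R2.H432 (cheb)
open Vale.Agent.P146.R3.H432 (Qm Om)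
open Vale.Agent.P146.R3.H952 (MinProf)
open Vale.Agent.P146.Sk (Wm Ix)

/-- Row F: the limits of the traces. -/
def StF : Prop := ∀ (L : ℕ) (c : ℕ → ℝ), ∀ᵐ ω ∂Qm,
  Tendsto (fun N : ℕ => ((N : ℝ) / 2 * (Wm N (Vale.Agent.P146.R3.H432.zz N ω) * hm L c (Wm N (Vale.Agent.P146.R3.H432.zz N ω))).trace -
    (KK L c (Wm N (Vale.Agent.P146.R3.H432.zz N ω))).trace) / (N : ℝ) ^ 2) atTop (𝓝 0) ∧
  Tendsto (fun N : ℕ => ((N : ℝ) / 4 * (hm L c (Wm N (Vale.Agent.P146.R3.H432.zz N ω)) * hm L c (Wm N (Vale.Agent.P146.R3.H432.zz N ω))).trace +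
    (KK L c (Wm N (Vale.Agent.P146.R3.H432.zz N ω)) * KK L c (Wm N (Vale.Agent.P146.R3.H432.zz N ω))).trace) / (N : ℝ) ^ 2) atTop
    (𝓝 (1 / 4 * ∑ k ∈ Finset.range L, (2 * (k : ℝ) + 3) * c k ^ 2)) ∧
  Tendsto (fun N : ℕ => (Wm N (Vale.Agent.P146.R3.H432.zz N ω)).trace / (N : ℝ)) atTop (𝓝 0) ∧
  Tendsto (fun N : ℕ => (hm L c (Wm N (Vale.Agent.P146.R3.H432.zz N ω))).trace / (N : ℝ)) atTop (𝓝 0)

/-- Row G: the pressure of the transported matrix. -/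
def StG : Prop := ∀ {β : ℝ}, 1 ≤ β → ∀ {x : ℝ → ℝ}, MinProf β x → ∀ (L : ℕ) (c : ℕ → ℝ) (ε : ℝ),
  0 < ε → ∃ δ : ℝ, 0 < δ ∧ ∀ η : ℝ, 0 < η → η ≤ δ → ∀ᵐ ω ∂Qm, ∀ᶠ N : ℕ in atTop,
    pressure N 1 (β • (Wm N (Vale.Agent.P146.R3.H432.zz N ω) - η • hm L c (Wm N (Vale.Agent.P146.R3.H432.zz N ω)))) ≤
      Sh.P0 β - η * (β / 2 * ∑ k ∈ Finset.range L, c k * mk β x (k + 1) - ε)

/-- Row I: the free energy and the pressure. -/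
def StI : Prop := ∀ (β : ℝ) (N : ℕ) (z : Ix N → ℝ), 1 ≤ N →
  freeEnergy N β (Vale.Agent.P146.R3.H432.sy N z) = N * (pressure N 1 (β • Wm N z) + Real.log 2) -
    β / 2 * (Wm N z).trace

/-- The final statement. -/
def StFin : Prop := ∀ {β : ℝ}, 1 < β → ∀ {p : ℝ},
  Tendsto (fun n : ℕ => (∫ g, freeEnergy n β g ∂(disorder n)) / n) atTop (𝓝 p) →
  ∀ ε : ℝ, 0 < ε → ∃ δ : ℝ, 0 < δ ∧ ∀ s : ℝ, 0 < s → s ≤ δ → ∀ᶠ n : ℕ in atTop,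
    Real.exp (-(ε * s ^ 2 * n ^ 2)) ≤ (disorder n).real {g | freeEnergy n β g ≤ n * (p - s)}

end Vale.Agent.P146.R2.H729.Tr
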