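import Vale.Agent.P146.R2.H729.TrDef

/-!
# P146: transport of the disorder: the deterministic part
-/

open MeasureTheory ProbabilityTheory Matrix Filter Topology
open scoped Matrix.Norms.L2Operator

namespace Vale.Agent.P146.R2.H729.Tr

open Vale.Agent.P146.R2.H432 (cheb)
open Vale.Agent.P146.Sk (Wm Ix Wm_transpose)
open Vale.Agent.P157.Lv (gI)

variable {N : ℕ}

lemma cheb_two (k : ℕ) (A : Matrix (Fin N) (Fin N) ℝ) :
    cheb (k + 2) A = A * cheb (k + 1) A - cheb k A := by rw [cheb]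

lemma cheb_zero' (A : Matrix (Fin N) (Fin N) ℝ) : cheb 0 A = 1 := by rw [cheb]
lemma cheb_one' (A : Matrix (Fin N) (Fin N) ℝ) : cheb 1 A = A := by rw [cheb]

lemma cheb_comm (A : Matrix (Fin N) (Fin N) ℝ) (k : ℕ) : Commute A (cheb k A) := by
  have key : Commute A (cheb k A) ∧ Commute A (cheb (k + 1) A) := by
    induction k with
    | zero =>
      rw [zero_add, cheb_zero', cheb_one']
      exact ⟨Commute.one_right A, Commute.refl A⟩
    | succ k ih =>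
      refine ⟨ih.2, ?_⟩
      rw [cheb_two]
      exact ((Commute.refl A).mul_right ih.2).sub_right ih.1
  exact key.1

lemma cheb_symm {A : Matrix (Fin N) (Fin N) ℝ} (hA : A.IsSymm) (k : ℕ) : (cheb k A).IsSymm := by
  have key : (cheb k A).IsSymm ∧ (cheb (k + 1) A).IsSymm := by
    induction k with
    | zero =>
      rw [zero_add, cheb_zero', cheb_one']
      exact ⟨Matrix.isSymm_one, hA⟩
    | succ k ih =>
      refine ⟨ih.2, ?_⟩
      rw [cheb_two]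
      unfold Matrix.IsSymm
      rw [transpose_sub, transpose_mul, ih.1.eq, ih.2.eq, hA.eq, (cheb_comm A (k + 1)).eq]
  exact key.1

lemma hm_symm (L : ℕ) (c : ℕ → ℝ) {A : Matrix (Fin N) (Fin N) ℝ} (hA : A.IsSymm) :
    (hm L c A).IsSymm := by
  unfold Matrix.IsSymm hm
  rw [transpose_sum]
  refine Finset.sum_congr rfl fun k _ => ?_
  rw [transpose_smul, (cheb_symm hA (k + 1)).eq]

lemma Wm_symm (z : Ix N → ℝ) : (Wm N z).IsSymm := Wm_transpose z

lemma Wm_TT (L : ℕ) (c : ℕ → ℝ) (η : ℝ) (hN : 1 ≤ N) (z : Ix N → ℝ) :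
    Wm N (TT L c η N z) = Wm N z - η • hm L c (Wm N z) := by
  have hN0 : (0 : ℝ) < N := by exact_mod_cast hN
  have hs : ∀ i j, hm L c (Wm N z) j i = hm L c (Wm N z) i j := fun i j =>
    (hm_symm L c (Wm_symm z)).apply i j
  have e1 : √((N : ℝ) / 2) * 2 / √(2 * (N : ℝ)) = 1 := by
    rw [show (2 : ℝ) * N = (N / 2) * 2 ^ 2 by ring, Real.sqrt_mul (by positivity),
      Real.sqrt_sq (by norm_num)]
    exact div_self (by positivity)
  ext i j
  rw [Matrix.sub_apply, Matrix.smul_apply, smul_eq_mul]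
  simp only [Wm, Matrix.of_apply, TT]
  have h2 := hs i j
  simp only [Wm] at h2 ⊢
  rw [h2]
  generalize hm L c (Matrix.of fun i j => (z (i, j) + z (j, i)) / √(2 * (N : ℝ))) i j = h
  have e2 : (z (i, j) - η * (√((N : ℝ) / 2) * h) + (z (j, i) - η * (√((N : ℝ) / 2) * h))) /
      √(2 * (N : ℝ)) = (z (i, j) + z (j, i)) / √(2 * (N : ℝ)) -
        η * h * (√((N : ℝ) / 2) * 2 / √(2 * (N : ℝ))) := by ring
  rw [e2, e1, mul_one]

lemma sum_Ix (f : Ix N → ℝ) : ∑ e, f e = ∑ i, ∑ j, f (i, j) := Fintype.sum_prod_type f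

lemma sum_mul_symm (z : Ix N → ℝ) {H : Matrix (Fin N) (Fin N) ℝ} (hH : H.IsSymm) (hN : 1 ≤ N) :
    ∑ e, z e * H e.1 e.2 = √((N : ℝ) / 2) * (Wm N z * H).trace := by
  have hN0 : (0 : ℝ) < N := by exact_mod_cast hN
  have e1 : √((N : ℝ) / 2) * 2 / √(2 * (N : ℝ)) = 1 := by
    rw [show (2 : ℝ) * N = (N / 2) * 2 ^ 2 by ring, Real.sqrt_mul (by positivity),
      Real.sqrt_sq (by norm_num)]
    exact div_self (by positivity)
  have e2 : √((N : ℝ) / 2) / √(2 * (N : ℝ)) = 1 / 2 := by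
    have : √((N : ℝ) / 2) * 2 / √(2 * (N : ℝ)) = 2 * (√((N : ℝ) / 2) / √(2 * (N : ℝ))) := by ring
    linarith
  rw [sum_Ix]
  have e3 : (Wm N z * H).trace = ∑ i, ∑ j, (z (i, j) + z (j, i)) / √(2 * (N : ℝ)) * H i j := by
    unfold Matrix.trace
    refine Finset.sum_congr rfl fun i _ => ?_
    rw [Matrix.diag_apply, Matrix.mul_apply]
    refine Finset.sum_congr rfl fun j _ => ?_
    rw [hH.apply i j]
    rfl
  have e4 : ∑ i, ∑ j, z (j, i) * H i j = ∑ i, ∑ j, z (i, j) * H i j := by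
    rw [Finset.sum_comm]
    refine Finset.sum_congr rfl fun i _ => Finset.sum_congr rfl fun j _ => ?_
    rw [hH.apply i j]
  rw [e3, Finset.mul_sum]
  have e5 : ∀ i, √((N : ℝ) / 2) * ∑ j, (z (i, j) + z (j, i)) / √(2 * (N : ℝ)) * H i j =
      1 / 2 * (∑ j, z (i, j) * H i j + ∑ j, z (j, i) * H i j) := by
    intro i
    rw [Finset.mul_sum, ← Finset.sum_add_distrib, Finset.mul_sum]
    refine Finset.sum_congr rfl fun j _ => ?_
    have : √((N : ℝ) / 2) * ((z (i, j) + z (j, i)) / √(2 * (N : ℝ)) * H i j) =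
        (√((N : ℝ) / 2) / √(2 * (N : ℝ))) * ((z (i, j) + z (j, i)) * H i j) := by ring
    rw [this, e2]
    ring
  simp only [e5]
  rw [← Finset.mul_sum, Finset.sum_add_distrib, e4]
  ring

lemma sum_sq_symm {H : Matrix (Fin N) (Fin N) ℝ} (hH : H.IsSymm) :
    ∑ e : Ix N, H e.1 e.2 ^ 2 = (H * H).trace := by
  rw [sum_Ix]
  unfold Matrix.trace
  refine Finset.sum_congr rfl fun i _ => ?_
  rw [Matrix.diag_apply, Matrix.mul_apply]
  refine Finset.sum_congr rfl fun j _ => ?_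
  rw [hH.apply i j, sq]

/-- the exponent of the density -/
lemma expo (L : ℕ) (c : ℕ → ℝ) (η : ℝ) (hN : 1 ≤ N) (z : Ix N → ℝ) :
    (∑ e, z e ^ 2 - ∑ e, TT L c η N z e ^ 2) / 2 =
      η * ((N : ℝ) / 2 * (Wm N z * hm L c (Wm N z)).trace) -
        η ^ 2 * ((N : ℝ) / 4 * (hm L c (Wm N z) * hm L c (Wm N z)).trace) := by
  have hs := hm_symm L c (Wm_symm z)
  have h1 := sum_mul_symm z hs hN
  have h2 := sum_sq_symm hs
  have h3 : √((N : ℝ) / 2) * √((N : ℝ) / 2) = N / 2 := Real.mul_self_sqrt (by positivity)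
  rw [← h2]
  have e1 : ∀ e, TT L c η N z e ^ 2 = z e ^ 2 - 2 * η * √((N : ℝ) / 2) *
      (z e * hm L c (Wm N z) e.1 e.2) + η ^ 2 * (N / 2) * hm L c (Wm N z) e.1 e.2 ^ 2 := by
    intro e
    unfold TT
    linear_combination (η ^ 2 * hm L c (Wm N z) e.1 e.2 ^ 2) * h3
  simp only [e1]
  rw [Finset.sum_add_distrib, Finset.sum_sub_distrib, ← Finset.mul_sum, ← Finset.mul_sum, h1]
  linear_combination (η * (Wm N z * hm L c (Wm N z)).trace) * h3

/-- the map `W` is Lipschitz -/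
lemma Wm_lip (hN : 1 ≤ N) (z z' : Ix N → ℝ) :
    (N : ℝ) / 2 * ∑ i, ∑ j, (Wm N z i j - Wm N z' i j) ^ 2 ≤ ∑ e, (z e - z' e) ^ 2 := by
  have hN0 : (0 : ℝ) < N := by exact_mod_cast hN
  have h1 : √(2 * (N : ℝ)) ^ 2 = 2 * N := Real.sq_sqrt (by positivity)
  have e1 : ∀ i j, (Wm N z i j - Wm N z' i j) ^ 2 ≤
      ((z (i, j) - z' (i, j)) ^ 2 + (z (j, i) - z' (j, i)) ^ 2) / N := by
    intro i j
    have e : Wm N z i j - Wm N z' i j =
        ((z (i, j) - z' (i, j)) + (z (j, i) - z' (j, i))) / √(2 * (N : ℝ)) := by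
      simp only [Wm, Matrix.of_apply]
      ring
    rw [e, div_pow, h1, div_le_div_iff₀ (by positivity) hN0]
    nlinarith [sq_nonneg ((z (i, j) - z' (i, j)) - (z (j, i) - z' (j, i)))]
  have e2 : ∑ i, ∑ j, (Wm N z i j - Wm N z' i j) ^ 2 ≤
      ∑ i, ∑ j, ((z (i, j) - z' (i, j)) ^ 2 + (z (j, i) - z' (j, i)) ^ 2) / N :=
    Finset.sum_le_sum fun i _ => Finset.sum_le_sum fun j _ => e1 i j
  have e3 : ∑ i, ∑ j, ((z (i, j) - z' (i, j)) ^ 2 + (z (j, i) - z' (j, i)) ^ 2) / (N : ℝ) =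
      2 / N * ∑ i, ∑ j, (z (i, j) - z' (i, j)) ^ 2 := by
    have e4 : ∑ i, ∑ j, (z (j, i) - z' (j, i)) ^ 2 = ∑ i, ∑ j, (z (i, j) - z' (i, j)) ^ 2 :=
      Finset.sum_comm
    simp only [← Finset.sum_div, Finset.sum_add_distrib]
    rw [e4]
    ring
  rw [sum_Ix]
  calc (N : ℝ) / 2 * ∑ i, ∑ j, (Wm N z i j - Wm N z' i j) ^ 2
      ≤ (N : ℝ) / 2 * (2 / N * ∑ i, ∑ j, (z (i, j) - z' (i, j)) ^ 2) := by
        refine mul_le_mul_of_nonneg_left (e2.trans e3.le) (by positivity)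
    _ = _ := by
        field_simp

/-- injectivity -/
lemma inj_TT {L : ℕ} {c : ℕ → ℝ} {C η : ℝ} (hN : 1 ≤ N) (hη : η ^ 2 * C ≤ 1 / 4)
    {z z' : Ix N → ℝ}
    (hE : ∑ i, ∑ j, (hm L c (Wm N z) i j - hm L c (Wm N z') i j) ^ 2 ≤
      C * ∑ i, ∑ j, (Wm N z i j - Wm N z' i j) ^ 2)
    (h : TT L c η N z = TT L c η N z') : z = z' := by
  have h3 : √((N : ℝ) / 2) * √((N : ℝ) / 2) = N / 2 := Real.mul_self_sqrt (by positivity)
  have e1 : ∀ e, (z e - z' e) ^ 2 = η ^ 2 * (N / 2) *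
      (hm L c (Wm N z) e.1 e.2 - hm L c (Wm N z') e.1 e.2) ^ 2 := by
    intro e
    have h4 := congrFun h e
    unfold TT at h4
    have h5 : z e - z' e = η * √((N : ℝ) / 2) *
        (hm L c (Wm N z) e.1 e.2 - hm L c (Wm N z') e.1 e.2) := by linarith
    rw [h5]
    linear_combination (η ^ 2 *
      (hm L c (Wm N z) e.1 e.2 - hm L c (Wm N z') e.1 e.2) ^ 2) * h3
  have h6 : ∑ e, (z e - z' e) ^ 2 ≤ 1 / 4 * ∑ e, (z e - z' e) ^ 2 := by
    calc ∑ e, (z e - z' e) ^ 2 = η ^ 2 * (N / 2) *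
          ∑ i, ∑ j, (hm L c (Wm N z) i j - hm L c (Wm N z') i j) ^ 2 := by
          simp only [e1]
          rw [← Finset.mul_sum, sum_Ix]
      _ ≤ η ^ 2 * (N / 2) * (C * ∑ i, ∑ j, (Wm N z i j - Wm N z' i j) ^ 2) :=
          mul_le_mul_of_nonneg_left hE (by positivity)
      _ = η ^ 2 * C * ((N : ℝ) / 2 * ∑ i, ∑ j, (Wm N z i j - Wm N z' i j) ^ 2) := by ring
      _ ≤ 1 / 4 * ((N : ℝ) / 2 * ∑ i, ∑ j, (Wm N z i j - Wm N z' i j) ^ 2) :=
          mul_le_mul_of_nonneg_right hη (mul_nonneg (by positivity)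
            (Finset.sum_nonneg fun _ _ => Finset.sum_nonneg fun _ _ => sq_nonneg _))
      _ ≤ 1 / 4 * ∑ e, (z e - z' e) ^ 2 := by
          have := Wm_lip hN z z'
          linarith
  have h7 : 0 ≤ ∑ e, (z e - z' e) ^ 2 := Finset.sum_nonneg fun _ _ => sq_nonneg _
  have h8 : ∑ e, (z e - z' e) ^ 2 = 0 := by linarith
  funext e
  have h9 := (Finset.sum_eq_zero_iff_of_nonneg fun e _ => sq_nonneg (z e - z' e)).1 h8 e
    (Finset.mem_univ e)
  have h10 := pow_eq_zero_iff (n := 2) (by norm_num) |>.1 h9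
  linarith

/-- **The transport bound.** -/
theorem transport_bd (hA : StA) (hB : StB) (hC : StC) (hD : StD) (L : ℕ) (c : ℕ → ℝ) {C : ℝ}
    (hE : ∀ (N : ℕ) (A B : Matrix (Fin N) (Fin N) ℝ), A.IsSymm → B.IsSymm → ‖A‖ ≤ 3 → ‖B‖ ≤ 3 →
      (∀ x : Ix N → ℝ, ∑ e, (KK L c A *ᵥ x) e ^ 2 ≤ C * ∑ e, x e ^ 2) ∧
      ∑ i, ∑ j, (hm L c A i j - hm L c B i j) ^ 2 ≤ C * ∑ i, ∑ j, (A i j - B i j) ^ 2)
    (hN : 1 ≤ N) {η : ℝ} (hη : η ^ 2 * C ≤ 1 / 4) {B A : Set (Ix N → ℝ)} (hBm : MeasurableSet B)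
    (hAm : MeasurableSet A) (hmap : Set.MapsTo (TT L c η N) B A)
    (h3 : ∀ z ∈ B, ‖Wm N z‖ ≤ 3) {c0 : ℝ}
    (hc : ∀ z ∈ B, -c0 ≤ η * ((N : ℝ) / 2 * (Wm N z * hm L c (Wm N z)).trace -
      (KK L c (Wm N z)).trace) - η ^ 2 * ((N : ℝ) / 4 *
        (hm L c (Wm N z) * hm L c (Wm N z)).trace + (KK L c (Wm N z) * KK L c (Wm N z)).trace)) :
    Real.exp (-c0) * (gI (Ix N)).real B ≤ (gI (Ix N)).real A := by
  refine hA B A (TT L c η N) (fun z => 1 - η • KK L c (Wm N z)) c0 hBm hAm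
    (fun z => hC L c η N z) ?_ hmap fun z hz => ?_
  · intro z hz z' hz' h
    exact inj_TT hN hη (hE N _ _ (Wm_symm z) (Wm_symm z') (h3 z hz) (h3 z' hz')).2 h
  · obtain ⟨hs, -, -⟩ := hD L c (Wm N z) (Wm_symm z)
    have hk := (hE N _ _ (Wm_symm z) (Wm_symm z) (h3 z hz) (h3 z hz)).1
    have hs' : (η • KK L c (Wm N z)).IsSymm := by
      unfold Matrix.IsSymm
      rw [transpose_smul, hs.eq]
    obtain ⟨b1, b2⟩ := hB (η • KK L c (Wm N z)) hs' (fun x => by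
      have h := hk x
      have e : ∑ e, ((η • KK L c (Wm N z)) *ᵥ x) e ^ 2 =
          η ^ 2 * ∑ e, (KK L c (Wm N z) *ᵥ x) e ^ 2 := by
        rw [Finset.mul_sum]
        refine Finset.sum_congr rfl fun e _ => ?_
        rw [Matrix.smul_mulVec, Pi.smul_apply, smul_eq_mul]
        ring
      rw [e]
      have h0 : 0 ≤ ∑ e, x e ^ 2 := Finset.sum_nonneg fun _ _ => sq_nonneg _
      nlinarith [mul_le_mul_of_nonneg_left h (sq_nonneg η), mul_le_mul_of_nonneg_right hη h0])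
    refine ⟨b1, ?_⟩
    have h4 := hc z hz
    have h5 := expo L c η hN z
    have e1 : (η • KK L c (Wm N z)).trace = η * (KK L c (Wm N z)).trace := by
      rw [trace_smul, smul_eq_mul]
    have e2 : ((η • KK L c (Wm N z)) * (η • KK L c (Wm N z))).trace =
        η ^ 2 * (KK L c (Wm N z) * KK L c (Wm N z)).trace := by
      rw [Matrix.smul_mul, Matrix.mul_smul, smul_smul, trace_smul, smul_eq_mul, sq]
    rw [e1, e2] at b2
    rw [h5]
    linarith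

end Vale.Agent.P146.R2.H729.Tr
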