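import Vale.Agent.P146.R2.H729.TrSpec
import Vale.Agent.P146.R2.H729.TrDet

/-!
# P146: the lower half of the lower tail is `o(s²)`: assembly
-/

open MeasureTheory ProbabilityTheory Matrix Filter Topology
open scoped Matrix.Norms.L2Operator

namespace Vale.Agent.P146.R2.H729.Tr

open Vale.Agent.P166 Vale.Agent.P146 Vale.Agent.P146.H605 Vale.Agent.P146.R3
open Vale.Agent.P146.R2.H432 (cheb)
open Vale.Agent.P146.R3.H432 (Qm Om map_sy map_zz measurable_zz measurable_sy cheb_eq_aeval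
  continuous_aeval_Wm ae_norm_Wm)
open Vale.Agent.P146.R3.H952 (MinProf)
open Vale.Agent.P146.Sk (Wm Ix)
open Vale.Agent.P157.Lv (gI)

/-- events which hold eventually, almost surely, have large probability -/
lemma ev_half {Ω : Type} [MeasurableSpace Ω] {Q : Measure Ω} [IsProbabilityMeasure Q]
    {E : ℕ → Set Ω} (hE : ∀ N, MeasurableSet (E N)) (h : ∀ᵐ ω ∂Q, ∀ᶠ N in atTop, ω ∈ E N) :
    ∀ᶠ N in atTop, 1 / 2 ≤ Q.real (E N) := by
  have h1 : Tendsto (fun N => Q (E N)) atTop (𝓝 (Q Set.univ)) := by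
    refine tendsto_measure_of_ae_tendsto_indicator_of_isFiniteMeasure atTop MeasurableSet.univ hE ?_
    filter_upwards [h] with ω hω
    filter_upwards [hω] with N hN
    exact ⟨fun _ => Set.mem_univ _, fun _ => hN⟩
  have h2 : Tendsto (fun N => Q.real (E N)) atTop (𝓝 1) := by
    have := (ENNReal.tendsto_toReal (measure_ne_top Q Set.univ)).comp h1
    rw [measure_univ, ENNReal.toReal_one] at this
    exact this
  exact (h2.eventually_const_lt (by norm_num : (1 / 2 : ℝ) < 1)).mono fun N hN => hN.le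

lemma continuous_cheb (N k : ℕ) : Continuous fun z : Ix N → ℝ => cheb k (Wm N z) := by
  simp only [cheb_eq_aeval]
  exact continuous_aeval_Wm N _

lemma continuous_Wm' (N : ℕ) : Continuous fun z : Ix N → ℝ => Wm N z := by
  have h := continuous_cheb N 1
  simp only [cheb_one'] at h
  exact h

lemma continuous_hm (L : ℕ) (c : ℕ → ℝ) (N : ℕ) :
    Continuous fun z : Ix N → ℝ => hm L c (Wm N z) := by
  unfold hm
  exact continuous_finsetSum _ fun k _ => (continuous_cheb N (k + 1)).const_smul (c k)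

lemma continuous_entry {N k : ℕ} (i j : Fin N) :
    Continuous fun z : Ix N → ℝ => cheb k (Wm N z) i j :=
  (continuous_cheb N k).matrix_elem i j

lemma continuous_KK (L : ℕ) (c : ℕ → ℝ) (N : ℕ) :
    Continuous fun z : Ix N → ℝ => KK L c (Wm N z) := by
  refine continuous_matrix fun e f => ?_
  simp only [KK, Matrix.of_apply]
  refine continuous_const.mul (continuous_finsetSum _ fun k _ => continuous_const.mul
    (continuous_finsetSum _ fun a _ => ?_))
  exact ((continuous_entry _ _).mul (continuous_entry _ _)).add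
    ((continuous_entry _ _).mul (continuous_entry _ _))

/-- the first bracket -/
noncomputable def G1 (L : ℕ) (c : ℕ → ℝ) (N : ℕ) (z : Ix N → ℝ) : ℝ :=
  ((N : ℝ) / 2 * (Wm N z * hm L c (Wm N z)).trace - (KK L c (Wm N z)).trace) / (N : ℝ) ^ 2

/-- the second bracket -/
noncomputable def G2 (L : ℕ) (c : ℕ → ℝ) (N : ℕ) (z : Ix N → ℝ) : ℝ :=
  ((N : ℝ) / 4 * (hm L c (Wm N z) * hm L c (Wm N z)).trace +
    (KK L c (Wm N z) * KK L c (Wm N z)).trace) / (N : ℝ) ^ 2

lemma continuous_G1 (L : ℕ) (c : ℕ → ℝ) (N : ℕ) : Continuous (G1 L c N) := by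
  unfold G1
  exact ((continuous_const.mul ((continuous_Wm' N).mul (continuous_hm L c N)).matrix_trace).sub
    (continuous_KK L c N).matrix_trace).div_const _

lemma continuous_G2 (L : ℕ) (c : ℕ → ℝ) (N : ℕ) : Continuous (G2 L c N) := by
  unfold G2
  exact ((continuous_const.mul ((continuous_hm L c N).mul (continuous_hm L c N)).matrix_trace).add
    ((continuous_KK L c N).mul (continuous_KK L c N)).matrix_trace).div_const _

/-- the pressure after the transport -/
noncomputable def PP (β : ℝ) (L : ℕ) (c : ℕ → ℝ) (η : ℝ) (N : ℕ) (z : Ix N → ℝ) : ℝ :=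
  pressure N 1 (β • (Wm N z - η • hm L c (Wm N z)))

lemma measurable_PP (β : ℝ) (L : ℕ) (c : ℕ → ℝ) (η : ℝ) (N : ℕ) :
    Measurable (PP β L c η N) := by
  unfold PP pressure
  refine (Real.measurable_log.comp (Measurable.const_mul ?_ _)).const_mul _
  refine Finset.measurable_sum _ fun σ _ => ?_
  refine Real.measurable_exp.comp ?_
  refine (Continuous.measurable ?_).const_mul _
  have h1 : Continuous fun z : Ix N → ℝ => β • (Wm N z - η • hm L c (Wm N z)) :=
    ((continuous_Wm' N).sub ((continuous_hm L c N).const_smul η)).const_smul β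
  exact Continuous.dotProduct continuous_const (h1.matrix_mulVec continuous_const)

/-- the good set -/
def BB (β P : ℝ) (L : ℕ) (c : ℕ → ℝ) (η g1 g2 κ : ℝ) (N : ℕ) : Set (Ix N → ℝ) :=
  {z | ‖Wm N z‖ ≤ 3 ∧ -g1 ≤ G1 L c N z ∧ G2 L c N z ≤ g2 ∧ PP β L c η N z ≤ P ∧
    -κ ≤ (Wm N z).trace / N ∧ (hm L c (Wm N z)).trace / N ≤ κ}

lemma measurable_BB (β P : ℝ) (L : ℕ) (c : ℕ → ℝ) (η g1 g2 κ : ℝ) (N : ℕ) :
    MeasurableSet (BB β P L c η g1 g2 κ N) := by
  unfold BB
  refine (measurableSet_le (continuous_Wm' N).norm.measurable measurable_const).inter ?_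
  refine (measurableSet_le measurable_const (continuous_G1 L c N).measurable).inter ?_
  refine (measurableSet_le (continuous_G2 L c N).measurable measurable_const).inter ?_
  refine (measurableSet_le (measurable_PP β L c η N) measurable_const).inter ?_
  refine (measurableSet_le measurable_const
    ((continuous_Wm' N).matrix_trace.div_const _).measurable).inter ?_
  exact measurableSet_le ((continuous_hm L c N).matrix_trace.div_const _).measurable
    measurable_const

/-- Row J. -/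
def StJ : Prop := ∀ {β : ℝ}, 1 < β → ∃ x : ℝ → ℝ, MinProf β x ∧
  (∀ M : ℝ, ∃ L : ℕ, M ≤ ∑ k ∈ Finset.range L, mk β x (k + 1) ^ 2 / ((k : ℝ) + 2)) ∧
  Tendsto (fun n : ℕ => (∫ g, freeEnergy n β g ∂(disorder n)) / n) atTop
    (𝓝 (Real.log 2 + Sh.P0 β))

theorem fin (hA : StA) (hB : StB) (hC : StC) (hD : StD) (hE : StE) (hF : StF) (hG : StG)
    (hI : StI) (hJ : StJ) : StFin := by
  intro β hβ p hp ε hε
  have hβ0 : 0 < β := by linarith
  obtain ⟨x, hx, hx1, hx2⟩ := hJ hβ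
  have hpe : p = Real.log 2 + Sh.P0 β := tendsto_nhds_unique hp hx2
  -- choose the number of levels
  obtain ⟨L, hL⟩ := hx1 (max 1 (32 / (β ^ 2 * ε)))
  obtain ⟨S, hS⟩ : ∃ S, S = ∑ k ∈ Finset.range L, mk β x (k + 1) ^ 2 / ((k : ℝ) + 2) := ⟨_, rfl⟩
  rw [← hS] at hL
  have hS1 : 1 ≤ S := (le_max_left _ _).trans hL
  have hS2 : 32 / (β ^ 2 * ε) ≤ S := (le_max_right _ _).trans hL
  have hS0 : 0 < S := by linarith
  set c : ℕ → ℝ := fun k => mk β x (k + 1) / ((k : ℝ) + 2) with hc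
  have hSc : ∑ k ∈ Finset.range L, c k * mk β x (k + 1) = S := by
    rw [hS]
    refine Finset.sum_congr rfl fun k _ => ?_
    simp only [hc]
    ring
  have hSq : 1 / 4 * ∑ k ∈ Finset.range L, (2 * (k : ℝ) + 3) * c k ^ 2 ≤ S / 2 := by
    have h1 : ∑ k ∈ Finset.range L, (2 * (k : ℝ) + 3) * c k ^ 2 ≤
        ∑ k ∈ Finset.range L, 2 * (mk β x (k + 1) ^ 2 / ((k : ℝ) + 2)) := by
      refine Finset.sum_le_sum fun k _ => ?_
      have hk : (0 : ℝ) < (k : ℝ) + 2 := by positivity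
      simp only [hc, div_pow]
      rw [mul_div_assoc', mul_div_assoc', div_le_div_iff₀ (by positivity) hk]
      have h2 : 0 ≤ mk β x (k + 1) ^ 2 := sq_nonneg _
      have h3 : 0 ≤ mk β x (k + 1) ^ 2 * ((k : ℝ) + 2) := by positivity
      nlinarith
    rw [← Finset.mul_sum, ← hS] at h1
    linarith
  obtain ⟨C, hC0, hCE⟩ := hE L c
  have hD0 : 0 < β / 2 * S := by positivity
  obtain ⟨δ, hδ, hδG⟩ := hG hβ.le hx L c (β / 2 * S / 4) (by positivity)
  rw [hSc] at hδG
  -- the range of `η`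
  obtain ⟨η₀, hη₀, hη₀1, hη₀2⟩ : ∃ η₀ : ℝ, 0 < η₀ ∧ η₀ ≤ δ ∧ η₀ ^ 2 * C ≤ 1 / 4 := by
    refine ⟨min δ (1 / (2 * (C + 1))), by positivity, min_le_left _ _, ?_⟩
    have h1 : min δ (1 / (2 * (C + 1))) ≤ 1 / (2 * (C + 1)) := min_le_right _ _
    have h2 : 0 < min δ (1 / (2 * (C + 1))) := by positivity
    have h3 : min δ (1 / (2 * (C + 1))) ^ 2 ≤ (1 / (2 * (C + 1))) ^ 2 :=
      pow_le_pow_left₀ h2.le h1 2
    calc min δ (1 / (2 * (C + 1))) ^ 2 * C ≤ (1 / (2 * (C + 1))) ^ 2 * C :=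
          mul_le_mul_of_nonneg_right h3 hC0.le
      _ ≤ 1 / 4 := by
          rw [div_pow, one_pow, div_mul_eq_mul_div, one_mul, div_le_div_iff₀ (by positivity)
            (by norm_num)]
          nlinarith
  refine ⟨η₀ * (β * S) / 4, by positivity, fun s hs hsδ => ?_⟩
  obtain ⟨η, hη⟩ : ∃ η, η = 4 * s / (β * S) := ⟨_, rfl⟩
  have hη0 : 0 < η := by rw [hη]; positivity
  have hηS : η * (β * S) = 4 * s := by
    rw [hη]
    field_simp
  have hηle : η ≤ η₀ := by
    rw [hη, div_le_iff₀ (by positivity)]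
    linarith
  have hηC : η ^ 2 * C ≤ 1 / 4 :=
    (mul_le_mul_of_nonneg_right (pow_le_pow_left₀ hη0.le hηle 2) hC0.le).trans hη₀2
  obtain ⟨κ, hκ⟩ : ∃ κ, κ = s / (β * (1 + η)) := ⟨_, rfl⟩
  have hκ0 : 0 < κ := by rw [hκ]; positivity
  have hκe : β * ((1 + η) * κ) = s := by
    rw [hκ]
    field_simp
  obtain ⟨P, hP⟩ : ∃ P, P = Sh.P0 β - η * (β / 2 * S - β / 2 * S / 4) := ⟨_, rfl⟩
  -- the good event
  have hev : ∀ᵐ ω ∂Qm, ∀ᶠ N in atTop,
      ω ∈ (Vale.Agent.P146.R3.H432.zz N) ⁻¹' (BB β P L c η (η * S / 4) (3 * S / 4) κ N) := by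
    filter_upwards [hF L c, hδG η hη0 (hηle.trans hη₀1), ae_norm_Wm one_pos] with ω h1 h2 h3
    obtain ⟨h4, h5, h6, h7⟩ := h1
    filter_upwards [h2, h3, h4.eventually_const_lt (show -(η * S / 4) < 0 by
        have : 0 < η * S / 4 := by positivity
        linarith),
      h5.eventually_lt_const (show _ < 3 * S / 4 by linarith),
      h6.eventually_const_lt (show -κ < 0 by linarith), h7.eventually_lt_const hκ0]
      with N g2 g3 g4 g5 g6 g7
    refine ⟨by linarith, g4.le, g5.le, ?_, g6.le, g7.le⟩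
    rw [hP]
    exact g2
  have hmeas : ∀ N, MeasurableSet ((Vale.Agent.P146.R3.H432.zz N) ⁻¹' (BB β P L c η (η * S / 4) (3 * S / 4) κ N)) :=
    fun N => measurable_zz N (measurable_BB _ _ _ _ _ _ _ _ _)
  have hhalf := ev_half hmeas hev
  -- large `n`
  have hbig : ∀ᶠ n : ℕ in atTop, Real.log 2 ≤ ε / 2 * s ^ 2 * (n : ℝ) ^ 2 := by
    have h1 : Tendsto (fun n : ℕ => ε / 2 * s ^ 2 * (n : ℝ) ^ 2) atTop atTop :=
      ((tendsto_pow_atTop (by norm_num)).comp tendsto_natCast_atTop_atTop).const_mul_atTop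
        (by positivity)
    exact h1.eventually_ge_atTop _
  filter_upwards [hhalf, hbig, eventually_ge_atTop 1] with N hN1 hN2 hN
  have hN0 : (0 : ℝ) < N := by exact_mod_cast hN
  have hAm : MeasurableSet {z : Ix N → ℝ | freeEnergy N β (Vale.Agent.P146.R3.H432.sy N z) ≤ N * (p - s)} := by
    refine measurableSet_le ?_ measurable_const
    exact (Ub.Cv.lin_freeEnergy N β).cont.measurable.comp (measurable_sy N)
  -- the map
  have hmap : Set.MapsTo (TT L c η N) (BB β P L c η (η * S / 4) (3 * S / 4) κ N)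
      {z : Ix N → ℝ | freeEnergy N β (Vale.Agent.P146.R3.H432.sy N z) ≤ N * (p - s)} := by
    intro z hz
    obtain ⟨-, -, -, h4, h5, h6⟩ := hz
    show freeEnergy N β (Vale.Agent.P146.R3.H432.sy N (TT L c η N z)) ≤ N * (p - s)
    rw [hI β N _ hN, Wm_TT L c η hN z, trace_sub, trace_smul, smul_eq_mul]
    have h7 : pressure N 1 (β • (Wm N z - η • hm L c (Wm N z))) ≤ P := h4
    have h8 : -(κ * N) ≤ (Wm N z).trace := by
      have := (le_div_iff₀ hN0).1 h5
      linarith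
    have h9 : (hm L c (Wm N z)).trace ≤ κ * N := (div_le_iff₀ hN0).1 h6
    have h10 : η * (hm L c (Wm N z)).trace ≤ η * (κ * N) := mul_le_mul_of_nonneg_left h9 hη0.le
    have h11 : N * (pressure N 1 (β • (Wm N z - η • hm L c (Wm N z))) + Real.log 2) ≤
        N * (P + Real.log 2) := mul_le_mul_of_nonneg_left (by linarith) hN0.le
    have h12 : -(β / 2 * ((Wm N z).trace - η * (hm L c (Wm N z)).trace)) ≤
        β / 2 * ((1 + η) * κ * N) := by
      have : -((Wm N z).trace - η * (hm L c (Wm N z)).trace) ≤ (1 + η) * κ * N := by linarith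
      calc -(β / 2 * ((Wm N z).trace - η * (hm L c (Wm N z)).trace)) =
            β / 2 * -((Wm N z).trace - η * (hm L c (Wm N z)).trace) := by ring
        _ ≤ _ := mul_le_mul_of_nonneg_left this (by positivity)
    have h13 : β / 2 * ((1 + η) * κ * N) = s / 2 * N := by
      linear_combination (N / 2 : ℝ) * hκe
    have h14 : N * (P + Real.log 2) = N * (p - 3 / 2 * s) := by
      rw [hP, hpe]
      linear_combination (-(3 / 8) * (N : ℝ)) * hηS
    linarith
  have key := transport_bd hA hB hC hD L c hCE hN hηC (measurable_BB β P L c η (η * S / 4)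
    (3 * S / 4) κ N) hAm hmap (fun z hz => hz.1) (c0 := (N : ℝ) ^ 2 * (η ^ 2 * S)) (by
      intro z hz
      obtain ⟨-, h2, h3, -⟩ := hz
      have hN2' : (0 : ℝ) < (N : ℝ) ^ 2 := by positivity
      have e1 : (N : ℝ) / 2 * (Wm N z * hm L c (Wm N z)).trace - (KK L c (Wm N z)).trace =
          (N : ℝ) ^ 2 * G1 L c N z := by
        rw [G1, mul_div_cancel₀ _ hN2'.ne']
      have e2 : (N : ℝ) / 4 * (hm L c (Wm N z) * hm L c (Wm N z)).trace +
          (KK L c (Wm N z) * KK L c (Wm N z)).trace = (N : ℝ) ^ 2 * G2 L c N z := by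
        rw [G2, mul_div_cancel₀ _ hN2'.ne']
      rw [e1, e2]
      have h4 : η * ((N : ℝ) ^ 2 * G1 L c N z) ≥ -((N : ℝ) ^ 2 * (η ^ 2 * S / 4)) := by
        have := mul_le_mul_of_nonneg_left h2 (show 0 ≤ η * (N : ℝ) ^ 2 by positivity)
        calc -((N : ℝ) ^ 2 * (η ^ 2 * S / 4)) = η * (N : ℝ) ^ 2 * -(η * S / 4) := by ring
          _ ≤ _ := this
          _ = _ := by ring
      have h5 : η ^ 2 * ((N : ℝ) ^ 2 * G2 L c N z) ≤ (N : ℝ) ^ 2 * (η ^ 2 * (3 * S / 4)) := by
        have := mul_le_mul_of_nonneg_left h3 (show 0 ≤ η ^ 2 * (N : ℝ) ^ 2 by positivity)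
        calc η ^ 2 * ((N : ℝ) ^ 2 * G2 L c N z) = η ^ 2 * (N : ℝ) ^ 2 * G2 L c N z := by ring
          _ ≤ _ := this
          _ = _ := by ring
      have e3 : (N : ℝ) ^ 2 * (η ^ 2 * S) = (N : ℝ) ^ 2 * (η ^ 2 * S / 4) +
          (N : ℝ) ^ 2 * (η ^ 2 * (3 * S / 4)) := by ring
      linarith)
  -- transfer to the disorder
  have hpA : (gI (Ix N)).real {z : Ix N → ℝ | freeEnergy N β (Vale.Agent.P146.R3.H432.sy N z) ≤ N * (p - s)} =
      (disorder N).real {g | freeEnergy N β g ≤ N * (p - s)} := by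
    rw [← map_sy, map_measureReal_apply (measurable_sy N)
      (measurableSet_le (Ub.Cv.lin_freeEnergy N β).cont.measurable measurable_const)]
    rfl
  have hpB : 1 / 2 ≤ (gI (Ix N)).real (BB β P L c η (η * S / 4) (3 * S / 4) κ N) := by
    rw [← map_zz, map_measureReal_apply (measurable_zz N) (measurable_BB _ _ _ _ _ _ _ _ _)]
    exact hN1
  rw [← hpA]
  refine le_trans ?_ key
  have hcost : (N : ℝ) ^ 2 * (η ^ 2 * S) ≤ ε / 2 * s ^ 2 * (N : ℝ) ^ 2 := by
    have e1 : η ^ 2 * S * (β ^ 2 * S) = 16 * s ^ 2 := by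
      have : (η * (β * S)) ^ 2 = (4 * s) ^ 2 := by rw [hηS]
      linarith [this, show (η * (β * S)) ^ 2 = η ^ 2 * S * (β ^ 2 * S) by ring]
    have e2 : 32 ≤ S * (β ^ 2 * ε) := (div_le_iff₀ (by positivity)).1 hS2
    have e3 : η ^ 2 * S ≤ ε / 2 * s ^ 2 := by
      have h1 : η ^ 2 * S * (β ^ 2 * S) ≤ ε / 2 * s ^ 2 * (β ^ 2 * S) := by
        rw [e1]
        have := mul_le_mul_of_nonneg_right e2 (sq_nonneg s)
        linarith
      exact le_of_mul_le_mul_right h1 (by positivity)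
    have := mul_le_mul_of_nonneg_left e3 (show (0 : ℝ) ≤ (N : ℝ) ^ 2 by positivity)
    linarith
  calc Real.exp (-(ε * s ^ 2 * (N : ℝ) ^ 2)) ≤
        Real.exp (-((N : ℝ) ^ 2 * (η ^ 2 * S)) + -Real.log 2) := by
        refine Real.exp_le_exp.2 ?_
        linarith
    _ = Real.exp (-((N : ℝ) ^ 2 * (η ^ 2 * S))) * (1 / 2) := by
        rw [Real.exp_add, Real.exp_neg (Real.log 2), Real.exp_log (by norm_num), one_div]
    _ ≤ _ := mul_le_mul_of_nonneg_left hpB (Real.exp_pos _).le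

end Vale.Agent.P146.R2.H729.Tr
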