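import Vale.Agent.P146.R2.H533.TrA
import Vale.Agent.P146.R2.H732.TrB
import Vale.Agent.P146.R2.H952.TrC
import Vale.Agent.P146.R2.H875.RowD
import Vale.Agent.P146.R2.H453.TrF
import Vale.Agent.P146.R2.H441.TrI
import Vale.Agent.P146.R2.H729.TrMain

/-!
# P146: the lower tail: transport by a fixed polynomial
-/

open MeasureTheory ProbabilityTheory Matrix Filter Topology
open scoped Matrix.Norms.L2Operator

namespace Vale.Agent.P146.R2.H729.Tr

open Vale.Agent.P166 Vale.Agent.P146 Vale.Agent.P146.H605 Vale.Agent.P146.R3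
open Vale.Agent.P146.R2.H432 (cheb)
open Vale.Agent.P146.R3.H432 (Qm Om map_sy map_zz measurable_zz measurable_sy ae_norm_Wm)
open Vale.Agent.P146.Sk (Wm Ix)
open Vale.Agent.P157.Lv (gI)

/-- The hypothesis on the polynomial: the transport is a bijection with a controlled derivative
on the matrices of norm at most `R`. -/
def Adm (L : ℕ) (c : ℕ → ℝ) (R : ℝ) : Prop :=
  ∀ (N : ℕ) (A B : Matrix (Fin N) (Fin N) ℝ), A.IsSymm → B.IsSymm → ‖A‖ ≤ R → ‖B‖ ≤ R →
    (∀ x : Ix N → ℝ, ∑ e, (KK L c A *ᵥ x) e ^ 2 ≤ 1 / 4 * ∑ e, x e ^ 2) ∧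
    ∑ i, ∑ j, (hm L c A i j - hm L c B i j) ^ 2 ≤ 1 / 4 * ∑ i, ∑ j, (A i j - B i j) ^ 2

/-- The transport bound, with `η = 1`. -/
theorem transport_one {N : ℕ} (L : ℕ) (c : ℕ → ℝ) {R : ℝ} (hE : Adm L c R)
    (hN : 1 ≤ N) {B A : Set (Ix N → ℝ)} (hBm : MeasurableSet B)
    (hAm : MeasurableSet A) (hmap : Set.MapsTo (TT L c 1 N) B A)
    (h3 : ∀ z ∈ B, ‖Wm N z‖ ≤ R) {c0 : ℝ}
    (hc : ∀ z ∈ B, -c0 ≤ ((N : ℝ) / 2 * (Wm N z * hm L c (Wm N z)).trace -
      (KK L c (Wm N z)).trace) - ((N : ℝ) / 4 *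
        (hm L c (Wm N z) * hm L c (Wm N z)).trace + (KK L c (Wm N z) * KK L c (Wm N z)).trace)) :
    Real.exp (-c0) * (gI (Ix N)).real B ≤ (gI (Ix N)).real A := by
  refine H533.stA B A (TT L c 1 N) (fun z => 1 - (1 : ℝ) • KK L c (Wm N z)) c0 hBm hAm
    (fun z => H952.Tr.stC L c 1 N z) ?_ hmap fun z hz => ?_
  · intro z hz z' hz' h
    exact inj_TT (C := 1 / 4) hN (by norm_num)
      (hE N _ _ (Wm_symm z) (Wm_symm z') (h3 z hz) (h3 z' hz')).2 h
  · obtain ⟨hs, -, -⟩ := H875.Tr.rowD L c (Wm N z) (Wm_symm z)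
    have hk := (hE N _ _ (Wm_symm z) (Wm_symm z) (h3 z hz) (h3 z hz)).1
    obtain ⟨b1, b2⟩ := H732.stB (KK L c (Wm N z)) hs hk
    have h4 := hc z hz
    have h5 := expo L c 1 hN z
    show (1 - (1 : ℝ) • KK L c (Wm N z)).det ≠ 0 ∧ _ ≤
      Real.log |(1 - (1 : ℝ) • KK L c (Wm N z)).det| + _
    rw [one_smul]
    refine ⟨b1, ?_⟩
    rw [h5]
    linarith

/-- the good set -/
def BR (R β P : ℝ) (L : ℕ) (c : ℕ → ℝ) (g1 g2 κ : ℝ) (N : ℕ) : Set (Ix N → ℝ) :=
  {z | ‖Wm N z‖ ≤ R ∧ -g1 ≤ G1 L c N z ∧ G2 L c N z ≤ g2 ∧ PP β L c 1 N z ≤ P ∧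
    -κ ≤ (Wm N z).trace / N ∧ (hm L c (Wm N z)).trace / N ≤ κ}

lemma measurable_BR (R β P : ℝ) (L : ℕ) (c : ℕ → ℝ) (g1 g2 κ : ℝ) (N : ℕ) :
    MeasurableSet (BR R β P L c g1 g2 κ N) := by
  unfold BR
  refine (measurableSet_le (continuous_Wm' N).norm.measurable measurable_const).inter ?_
  refine (measurableSet_le measurable_const (continuous_G1 L c N).measurable).inter ?_
  refine (measurableSet_le (continuous_G2 L c N).measurable measurable_const).inter ?_
  refine (measurableSet_le (measurable_PP β L c 1 N) measurable_const).inter ?_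
  refine (measurableSet_le measurable_const
    ((continuous_Wm' N).matrix_trace.div_const _).measurable).inter ?_
  exact measurableSet_le ((continuous_hm L c N).matrix_trace.div_const _).measurable
    measurable_const

/-- **The lower tail by transport.** If the pressure of `β (W - h(W))` is at most `P`, then the
free energy is at most `n (log 2 + P + κ)` with probability at least `exp (-Q n²)`, for every
`Q > (1/4) ∑ (2k+3) c_k²`. -/
theorem low_gen {β : ℝ} (hβ : 0 < β) (L : ℕ) (c : ℕ → ℝ) {R : ℝ} (hR : 2 < R) (hK : Adm L c R)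
    {P : ℝ} (hP : ∀ᵐ ω ∂Qm, ∀ᶠ N : ℕ in atTop,
      pressure N 1 (β • (Wm N (Vale.Agent.P146.R3.H432.zz N ω) -
        hm L c (Wm N (Vale.Agent.P146.R3.H432.zz N ω)))) ≤ P)
    {Q : ℝ} (hQ : 1 / 4 * ∑ k ∈ Finset.range L, (2 * (k : ℝ) + 3) * c k ^ 2 < Q)
    {κ : ℝ} (hκ : 0 < κ) :
    ∀ᶠ n : ℕ in atTop, Real.exp (-(Q * n ^ 2)) ≤
      (disorder n).real {g | freeEnergy n β g ≤ n * (Real.log 2 + P + κ)} := by
  obtain ⟨q, hq⟩ : ∃ q, q = 1 / 4 * ∑ k ∈ Finset.range L, (2 * (k : ℝ) + 3) * c k ^ 2 := ⟨_, rfl⟩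
  rw [← hq] at hQ
  obtain ⟨e, he⟩ : ∃ e, e = (Q - q) / 4 := ⟨_, rfl⟩
  have he0 : 0 < e := by rw [he]; linarith
  have hκβ : 0 < κ / β := by positivity
  have hev : ∀ᵐ ω ∂Qm, ∀ᶠ N in atTop,
      ω ∈ (Vale.Agent.P146.R3.H432.zz N) ⁻¹' (BR R β P L c e (q + e) (κ / β) N) := by
    filter_upwards [H453.TrF.stF H875.Tr.rowD L c, hP, ae_norm_Wm (sub_pos.2 hR)]
      with ω h1 h2 h3
    obtain ⟨h4, h5, h6, h7⟩ := h1
    rw [← hq] at h5
    filter_upwards [h2, h3, h4.eventually_const_lt (show -e < 0 by linarith),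
      h5.eventually_lt_const (show q < q + e by linarith),
      h6.eventually_const_lt (show -(κ / β) < 0 by linarith), h7.eventually_lt_const hκβ]
      with N g2 g3 g4 g5 g6 g7
    refine ⟨by linarith, g4.le, g5.le, ?_, g6.le, g7.le⟩
    show pressure N 1 (β • (Wm N (Vale.Agent.P146.R3.H432.zz N ω) -
      (1 : ℝ) • hm L c (Wm N (Vale.Agent.P146.R3.H432.zz N ω)))) ≤ P
    rw [one_smul]
    exact g2
  have hmeas : ∀ N, MeasurableSet ((Vale.Agent.P146.R3.H432.zz N) ⁻¹'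
      (BR R β P L c e (q + e) (κ / β) N)) :=
    fun N => measurable_zz N (measurable_BR _ _ _ _ _ _ _ _ _)
  have hhalf := ev_half hmeas hev
  have hbig : ∀ᶠ n : ℕ in atTop, Real.log 2 ≤ 2 * e * (n : ℝ) ^ 2 := by
    have h1 : Tendsto (fun n : ℕ => 2 * e * (n : ℝ) ^ 2) atTop atTop :=
      ((tendsto_pow_atTop (by norm_num)).comp tendsto_natCast_atTop_atTop).const_mul_atTop
        (by positivity)
    exact h1.eventually_ge_atTop _
  filter_upwards [hhalf, hbig, eventually_ge_atTop 1] with N hN1 hN2 hN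
  have hN0 : (0 : ℝ) < N := by exact_mod_cast hN
  have hAm : MeasurableSet {z : Ix N → ℝ |
      freeEnergy N β (Vale.Agent.P146.R3.H432.sy N z) ≤ N * (Real.log 2 + P + κ)} := by
    refine measurableSet_le ?_ measurable_const
    exact (Ub.Cv.lin_freeEnergy N β).cont.measurable.comp (measurable_sy N)
  have hmap : Set.MapsTo (TT L c 1 N) (BR R β P L c e (q + e) (κ / β) N)
      {z : Ix N → ℝ |
        freeEnergy N β (Vale.Agent.P146.R3.H432.sy N z) ≤ N * (Real.log 2 + P + κ)} := by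
    intro z hz
    obtain ⟨-, -, -, h4, h5, h6⟩ := hz
    show freeEnergy N β (Vale.Agent.P146.R3.H432.sy N (TT L c 1 N z)) ≤
      N * (Real.log 2 + P + κ)
    rw [H441.rowI β N _ hN, Wm_TT L c 1 hN z, trace_sub, trace_smul, smul_eq_mul, one_mul]
    have h7 : pressure N 1 (β • (Wm N z - (1 : ℝ) • hm L c (Wm N z))) ≤ P := h4
    have h8 : -(κ / β * N) ≤ (Wm N z).trace := by
      have := (le_div_iff₀ hN0).1 h5
      linarith
    have h9 : (hm L c (Wm N z)).trace ≤ κ / β * N := (div_le_iff₀ hN0).1 h6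
    have h11 : N * (pressure N 1 (β • (Wm N z - (1 : ℝ) • hm L c (Wm N z))) + Real.log 2) ≤
        N * (P + Real.log 2) := mul_le_mul_of_nonneg_left (by linarith) hN0.le
    have h12 : -(β / 2 * ((Wm N z).trace - (hm L c (Wm N z)).trace)) ≤
        β / 2 * (2 * (κ / β) * N) := by
      have : -((Wm N z).trace - (hm L c (Wm N z)).trace) ≤ 2 * (κ / β) * N := by linarith
      calc -(β / 2 * ((Wm N z).trace - (hm L c (Wm N z)).trace)) =
            β / 2 * -((Wm N z).trace - (hm L c (Wm N z)).trace) := by ring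
        _ ≤ _ := mul_le_mul_of_nonneg_left this (by positivity)
    have h13 : β / 2 * (2 * (κ / β) * N) = κ * N := by
      field_simp
    linarith
  have key := transport_one L c hK hN (measurable_BR R β P L c e (q + e) (κ / β) N) hAm hmap
    (fun z hz => hz.1) (c0 := (N : ℝ) ^ 2 * (q + 2 * e)) (by
      intro z hz
      obtain ⟨-, h2, h3, -⟩ := hz
      have hN2' : (0 : ℝ) < (N : ℝ) ^ 2 := by positivity
      have e1 : (N : ℝ) / 2 * (Wm N z * hm L c (Wm N z)).trace - (KK L c (Wm N z)).trace =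
          (N : ℝ) ^ 2 * G1 L c N z := by
        rw [G1, mul_div_cancel₀ _ hN2'.ne']
      have e2 : (N : ℝ) / 4 * (hm L c (Wm N z) * hm L c (Wm N z)).trace +
          (KK L c (Wm N z) * KK L c (Wm N z)).trace = (N : ℝ) ^ 2 * G2 L c N z := by
        rw [G2, mul_div_cancel₀ _ hN2'.ne']
      rw [e1, e2]
      have h4 := mul_le_mul_of_nonneg_left h2 hN2'.le
      have h5 := mul_le_mul_of_nonneg_left h3 hN2'.le
      linarith)
  have hpA : (gI (Ix N)).real {z : Ix N → ℝ |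
      freeEnergy N β (Vale.Agent.P146.R3.H432.sy N z) ≤ N * (Real.log 2 + P + κ)} =
      (disorder N).real {g | freeEnergy N β g ≤ N * (Real.log 2 + P + κ)} := by
    rw [← map_sy, map_measureReal_apply (measurable_sy N)
      (measurableSet_le (Ub.Cv.lin_freeEnergy N β).cont.measurable measurable_const)]
    rfl
  have hpB : 1 / 2 ≤ (gI (Ix N)).real (BR R β P L c e (q + e) (κ / β) N) := by
    rw [← map_zz, map_measureReal_apply (measurable_zz N) (measurable_BR _ _ _ _ _ _ _ _ _)]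
    exact hN1
  rw [← hpA]
  refine le_trans ?_ key
  have hQe : Q * (N : ℝ) ^ 2 = (N : ℝ) ^ 2 * (q + 2 * e) + 2 * e * (N : ℝ) ^ 2 := by
    rw [he]
    ring
  calc Real.exp (-(Q * (N : ℝ) ^ 2)) ≤
        Real.exp (-((N : ℝ) ^ 2 * (q + 2 * e)) + -Real.log 2) := by
        refine Real.exp_le_exp.2 ?_
        linarith
    _ = Real.exp (-((N : ℝ) ^ 2 * (q + 2 * e))) * (1 / 2) := by
        rw [Real.exp_add, Real.exp_neg (Real.log 2), Real.exp_log (by norm_num), one_div]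
    _ ≤ _ := mul_le_mul_of_nonneg_left hpB (Real.exp_pos _).le

end Vale.Agent.P146.R2.H729.Tr
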