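import Vale.Agent.P146.R2.H729.TrDet
import Vale.Agent.P146.R3.H432.Main
import Vale.Agent.P146.R3.H501.Frm

/-!
# P146: the pressure of a polynomial of the Gaussian matrix
-/

open MeasureTheory ProbabilityTheory Matrix Filter Topology Polynomial
open scoped Matrix.Norms.L2Operator

namespace Vale.Agent.P146.R2.H729.Tr

open Vale.Agent.P166 Vale.Agent.P166.H295 Vale.Agent.P146 Vale.Agent.P146.R3
open Vale.Agent.P146.R2.H432 (cheb)
open Vale.Agent.P146.R3.H432 (Qm Om cheb_eq_aeval eval_Sp Lam_eq ensemble_poly)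
open Vale.Agent.P146.Sk (Wm Ix Sp)

/-- `β (x - ∑_{k < L} c_k U_{k+1}(x))` -/
noncomputable def pf (β : ℝ) (L : ℕ) (c : ℕ → ℝ) (x : ℝ) : ℝ :=
  β * (x - ∑ k ∈ Finset.range L, c k * chR (k + 1) x)

/-- the law of `β (x - ∑_{k < L} c_k U_{k+1}(x))` under the semicircle law -/
noncomputable def muP (β : ℝ) (L : ℕ) (c : ℕ → ℝ) : Measure ℝ := sc.map (pf β L c)

/-- the polynomial -/
noncomputable def pp (β : ℝ) (L : ℕ) (c : ℕ → ℝ) : ℝ[X] :=
  C β * (X - ∑ k ∈ Finset.range L, C (c k) * Sp (k + 1))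

lemma eval_pp (β : ℝ) (L : ℕ) (c : ℕ → ℝ) (x : ℝ) : (pp β L c).eval x = pf β L c x := by
  simp only [pp, pf, eval_mul, eval_sub, eval_C, eval_X, eval_finsetSum, eval_Sp]

lemma eval_pp' (β : ℝ) (L : ℕ) (c : ℕ → ℝ) : (fun x => (pp β L c).eval x) = pf β L c :=
  funext fun x => eval_pp β L c x

lemma continuous_pf (β : ℝ) (L : ℕ) (c : ℕ → ℝ) : Continuous (pf β L c) := by
  rw [← eval_pp']
  exact (pp β L c).continuous

lemma aeval_pp {N : ℕ} (β : ℝ) (L : ℕ) (c : ℕ → ℝ) (A : Matrix (Fin N) (Fin N) ℝ) :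
    aeval A (pp β L c) = β • (A - hm L c A) := by
  rw [pp, map_mul, aeval_C, map_sub, aeval_X, map_sum, ← Algebra.smul_def]
  congr 2
  unfold hm
  refine Finset.sum_congr rfl fun k _ => ?_
  rw [map_mul, aeval_C, ← Algebra.smul_def, cheb_eq_aeval]

lemma isProb_muP (β : ℝ) (L : ℕ) (c : ℕ → ℝ) : IsProbabilityMeasure (muP β L c) :=
  Measure.isProbabilityMeasure_map (continuous_pf β L c).measurable.aemeasurable

lemma support_muP (β : ℝ) (L : ℕ) (c : ℕ → ℝ) :
    (muP β L c).support = pf β L c '' Set.Icc (-2 : ℝ) 2 := by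
  have hm := (continuous_pf β L c).measurable
  have hc : IsCompact (pf β L c '' Set.Icc (-2 : ℝ) 2) := isCompact_Icc.image (continuous_pf β L c)
  apply Set.Subset.antisymm
  · refine Measure.support_subset_of_isClosed hc.isClosed ?_
    rw [mem_ae_iff, muP, Measure.map_apply hm hc.isClosed.measurableSet.compl]
    refine measure_mono_null (fun x hx => ?_) (mem_ae_iff.1 H49.sc_ae)
    intro h
    exact hx (Set.mem_image_of_mem _ h)
  · rintro _ ⟨x, hx, rfl⟩
    rw [Measure.support_eq_forall_isOpen]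
    intro V hxV hV
    unfold muP
    rw [Measure.map_apply hm hV.measurableSet]
    exact H49.sc_pos (hV.preimage (continuous_pf β L c)) hx hxV

lemma isCompact_muP (β : ℝ) (L : ℕ) (c : ℕ → ℝ) : IsCompact (muP β L c).support := by
  rw [support_muP]
  exact isCompact_Icc.image (continuous_pf β L c)

/-- the matrices `β (W - h(W))` form an invariant ensemble -/
theorem ensemble_muP (β : ℝ) (L : ℕ) (c : ℕ → ℝ) :
    InvariantEnsemble Qm (fun N ω => β • (Wm N (Vale.Agent.P146.R3.H432.zz N ω) -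
      hm L c (Wm N (Vale.Agent.P146.R3.H432.zz N ω)))) (muP β L c) := by
  have h := ensemble_poly sc H49.sc_ae Lam_eq (pp β L c) (by
    rw [eval_pp']
    exact support_muP β L c)
  rw [eval_pp'] at h
  simp only [aeval_pp] at h
  exact h

/-- Row P: the pressure of the transported matrix converges to the value of the variational
problem for the law `muP`. -/
theorem rowP (β : ℝ) (L : ℕ) (c : ℕ → ℝ) : ∃ p' : ℝ, IsGLB (PV 1 (muP β L c)) p' ∧
    ∀ᵐ ω ∂Qm, Tendsto (fun N : ℕ => pressure N 1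
      (β • (Wm N (Vale.Agent.P146.R3.H432.zz N ω) -
        hm L c (Wm N (Vale.Agent.P146.R3.H432.zz N ω))))) atTop (𝓝 p') := by
  have := isProb_muP β L c
  obtain ⟨p', h1, h2⟩ := H501.exists_pressure (muP β L c) (isCompact_muP β L c)
  exact ⟨p', h1, h2 _ Qm _ (ensemble_muP β L c)⟩

end Vale.Agent.P146.R2.H729.Tr
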