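import Vale.Agent.P146.R2.H952.XSpec
import Vale.Agent.P146.R2.H729.TrP
import Vale.Agent.P146.R2.H729.TrGen

/-!
# P146: the exponent 12/5: rows P, N and T
-/

open MeasureTheory ProbabilityTheory Matrix Filter Topology
open scoped Matrix.Norms.L2Operator

namespace Vale.Agent.P146.R2.H729.X

open Vale.Agent.P166 Vale.Agent.P146 Vale.Agent.P146.H605
open Vale.Agent.P146.R3 (chR sc muS PV)
open Vale.Agent.P146.R3.H432 (Qm Om)
open Vale.Agent.P146.Sk (Wm Ix)

lemma muH_eq (β : ℝ) (L : ℕ) (c : ℕ → ℝ) : H952.X.muH β L c = Tr.muP β L c := rfl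

theorem stP : H952.X.StP := fun β _ L c => by
  rw [muH_eq]
  exact ⟨Tr.isProb_muP β L c, Tr.isCompact_muP β L c, Tr.rowP β L c⟩

lemma two_lt {q : ℝ} (hq : 1 < q) : 2 < q + q⁻¹ := by
  have h0 : 0 < q := by linarith
  have h1 : q * q⁻¹ = 1 := mul_inv_cancel₀ h0.ne'
  have h2 : 0 < (q - 1) ^ 2 := by
    have : 0 < q - 1 := by linarith
    positivity
  have h3 : q + q⁻¹ - 2 = (q - 1) ^ 2 * q⁻¹ := by
    linear_combination (-q + 2) * h1
  have h4 : 0 < (q - 1) ^ 2 * q⁻¹ := by positivity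
  linarith

theorem stN : H952.X.StN := fun q hq => by
  filter_upwards [Vale.Agent.P146.R3.H432.ae_norm_Wm (sub_pos.2 (two_lt hq))] with ω h
  filter_upwards [h] with N hN
  linarith

theorem stT (hE : H952.X.StE') : H952.X.StT := by
  intro β hβ L c q hq hn v hv ε hε
  have hK : Tr.Adm L c (q + q⁻¹) := by
    intro N A B hA hB hA1 hB1
    obtain ⟨h1, h2⟩ := hE L c q hq.le N A B hA hB hA1 hB1
    have h0 : 0 ≤ H952.X.nrm L c q := by
      unfold H952.X.nrm
      refine Finset.sum_nonneg fun k _ => mul_nonneg (abs_nonneg _) ?_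
      refine Finset.sum_nonneg fun a _ => ?_
      have : 0 < q := by linarith
      positivity
    have hs : H952.X.nrm L c q ^ 2 ≤ 1 / 4 := by nlinarith
    refine ⟨fun x => (h1 x).trans ?_, h2.trans ?_⟩
    · exact mul_le_mul_of_nonneg_right hs (Finset.sum_nonneg fun _ _ => sq_nonneg _)
    · exact mul_le_mul_of_nonneg_right hs
        (Finset.sum_nonneg fun _ _ => Finset.sum_nonneg fun _ _ => sq_nonneg _)
  obtain ⟨v', hv', hlim⟩ := Tr.rowP β L c
  have hvv : v' = v := hv'.unique hv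
  rw [hvv] at hlim
  have hP : ∀ᵐ ω ∂Qm, ∀ᶠ N : ℕ in atTop,
      pressure N 1 (β • (Wm N (Vale.Agent.P146.R3.H432.zz N ω) -
        Tr.hm L c (Wm N (Vale.Agent.P146.R3.H432.zz N ω)))) ≤ v + ε / 2 := by
    filter_upwards [hlim] with ω hω
    exact (hω.eventually_lt_const (show v < v + ε / 2 by linarith)).mono fun N hN => hN.le
  have hQ : 1 / 4 * ∑ k ∈ Finset.range L, (2 * (k : ℝ) + 3) * c k ^ 2 < H952.X.cst L c + ε := by
    unfold H952.X.cst
    linarith
  have key := Tr.low_gen hβ L c (two_lt hq) hK hP hQ (half_pos hε)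
  filter_upwards [key] with n hn'
  have e : Real.log 2 + (v + ε / 2) + ε / 2 = v + Real.log 2 + ε := by ring
  rw [e] at hn'
  exact hn'

end Vale.Agent.P146.R2.H729.X
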