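import Vale.Agent.P146.R2.H533.TrA
import Vale.Agent.P146.R2.H732.TrB
import Vale.Agent.P146.R2.H952.TrC
import Vale.Agent.P146.R2.H875.RowD
import Vale.Agent.P146.R2.H786.RowE
import Vale.Agent.P146.R2.H453.TrF
import Vale.Agent.P146.R2.H144.TrG
import Vale.Agent.P146.R2.H441.TrI
import Vale.Agent.P146.R2.H793.TrJ
import Vale.Agent.P146.R2.H729.TrMain

/-!
# P146: at small deviations the lower tail of the free energy is not quadratic
-/

open MeasureTheory ProbabilityTheory Filter Topology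

namespace Vale.Agent.P146.R2.H729

open Vale.Agent.P146 Vale.Agent.P146.H605

theorem stJ : Tr.StJ := fun hβ => H793.Tr.stJ hβ

/-- For every `ε > 0` and all small `s > 0` the probability that the free energy is below
`n (p - s)` is at least `exp (-ε s² n²)` for large `n`. -/
theorem low_o {β : ℝ} (hβ : 1 < β) {p : ℝ}
    (hp : Tendsto (fun n : ℕ => (∫ g, freeEnergy n β g ∂(disorder n)) / n) atTop (𝓝 p))
    {ε : ℝ} (hε : 0 < ε) :
    ∃ δ : ℝ, 0 < δ ∧ ∀ s : ℝ, 0 < s → s ≤ δ → ∀ᶠ n : ℕ in atTop,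
      Real.exp (-(ε * s ^ 2 * n ^ 2)) ≤ (disorder n).real {g | freeEnergy n β g ≤ n * (p - s)} :=
  Tr.fin H533.stA H732.stB H952.Tr.stC H875.Tr.rowD H786.stE (H453.TrF.stF H875.Tr.rowD)
    H144.stG H441.rowI stJ hβ hp ε hε

end Vale.Agent.P146.R2.H729
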