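import Vale.Agent.P146.R2.H453.Phys
import Vale.Agent.P146.R2.H952.KP
import Vale.Agent.P146.R2.H749.XK
import Vale.Agent.P146.R2.H875.XQ
import Vale.Agent.P146.R2.H786.XE
import Vale.Agent.P146.R2.H144.XH1
import Vale.Agent.P146.R2.H144.XJ
import Vale.Agent.P146.R2.H49.XH2
import Vale.Agent.P146.R2.H729.XP
import Vale.Agent.P146.R2.H729.TrLow

/-!
# P146: the lower tail: the exponent 12/5
-/

open MeasureTheory ProbabilityTheory Filter Topology

namespace Vale.Agent.P146.R2.H729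

open Vale.Agent.P146 Vale.Agent.P146.H605

/-- **The exponent 12/5.** For all small `s > 0` the probability that the free energy is below
`n (p - s)` is at least `exp (-C s^(12/5) n²)` for large `n`. -/
theorem low_phys {β : ℝ} (hβ : 1 < β) {p : ℝ}
    (hp : Tendsto (fun n : ℕ => (∫ g, freeEnergy n β g ∂(disorder n)) / n) atTop (𝓝 p)) :
    ∃ C δ : ℝ, 0 < C ∧ 0 < δ ∧ ∀ s : ℝ, 0 < s → s ≤ δ → ∀ᶠ n : ℕ in atTop,
      Real.exp (-(C * s ^ (12 / 5 : ℝ) * (n : ℝ) ^ 2)) ≤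
        (disorder n).real {g | freeEnergy n β g ≤ n * (p - s)} := by
  have hβ0 : 0 < β := by linarith
  obtain ⟨x, -, -, hx2⟩ := stJ hβ
  have hpe : p = Real.log 2 + Sh.P0 β := tendsto_nhds_unique hp hx2
  obtain ⟨c3, L0, hc3, hL0, hk⟩ := H952.X.kp H749.X.stK (H49.X.stH2 H144.X.stH1) H144.X.stJ X.stP
    β hβ (1 / 12) (by norm_num) (by norm_num)
  refine H453.Phys.phys_of (f := fun n s => (disorder n).real {g | freeEnergy n β g ≤ n * (p - s)})
    (c := c3 / 2) (C := 1 / 36) (L₀ := L0) ?_ (by positivity) (by norm_num) ?_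
  · intro n s s' hs
    refine measureReal_mono (fun g hg => ?_) (measure_ne_top _ _)
    have h1 : freeEnergy n β g ≤ n * (p - s') := hg
    show freeEnergy n β g ≤ n * (p - s)
    have h2 : (n : ℝ) * (p - s') ≤ n * (p - s) :=
      mul_le_mul_of_nonneg_left (by linarith) (Nat.cast_nonneg n)
    linarith
  · intro L hL hL1
    have hL2 : 2 ≤ L := hL0.trans hL
    have hLp : (0 : ℝ) < L := by exact_mod_cast hL1
    obtain ⟨c, hc, hpr⟩ := hk L hL
    obtain ⟨hn, hq⟩ := H875.X.stQ L hL2 (1 / 12) (by norm_num) c hc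
    have hq1 : (1 : ℝ) < 1 + 1 / L := by
      have : (0 : ℝ) < 1 / L := by positivity
      linarith
    have hK : Tr.Adm L c ((1 + 1 / (L : ℝ)) + (1 + 1 / (L : ℝ))⁻¹) := by
      intro N A B hA hB hA1 hB1
      obtain ⟨h1, h2⟩ := H786.X.stE' L c (1 + 1 / (L : ℝ)) hq1.le N A B hA hB hA1 hB1
      have h0 : 0 ≤ H952.X.nrm L c (1 + 1 / (L : ℝ)) := by
        unfold H952.X.nrm
        refine Finset.sum_nonneg fun k _ => mul_nonneg (abs_nonneg _) ?_
        refine Finset.sum_nonneg fun a _ => ?_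
        positivity
      have hs : H952.X.nrm L c (1 + 1 / (L : ℝ)) ^ 2 ≤ 1 / 4 := by nlinarith
      refine ⟨fun x => (h1 x).trans ?_, h2.trans ?_⟩
      · exact mul_le_mul_of_nonneg_right hs (Finset.sum_nonneg fun _ _ => sq_nonneg _)
      · exact mul_le_mul_of_nonneg_right hs
          (Finset.sum_nonneg fun _ _ => Finset.sum_nonneg fun _ _ => sq_nonneg _)
    have hQ : 1 / 4 * ∑ k ∈ Finset.range L, (2 * (k : ℝ) + 3) * c k ^ 2 <
        1 / 36 * (L : ℝ) ^ (-6 : ℝ) := by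
      have e : (L : ℝ) ^ (-6 : ℝ) = 1 / (L : ℝ) ^ 6 := by
        rw [Real.rpow_neg hLp.le, one_div]
        congr 1
        exact_mod_cast Real.rpow_natCast (L : ℝ) 6
      have h1 : 1 / 4 * ∑ k ∈ Finset.range L, (2 * (k : ℝ) + 3) * c k ^ 2 ≤
          3 * (1 / 12) ^ 2 / (L : ℝ) ^ 6 := hq
      refine h1.trans_lt ?_
      rw [e, mul_one_div, div_lt_div_iff_of_pos_right (by positivity)]
      norm_num
    have key := Tr.low_gen hβ0 L c (X.two_lt hq1) hK hpr hQ
      (κ := c3 / 2 * (L : ℝ) ^ (-(5 / 2) : ℝ)) (by positivity)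
    filter_upwards [key] with n hn'
    have e : Real.log 2 + (Sh.P0 β - c3 * (L : ℝ) ^ (-(5 / 2) : ℝ)) +
        c3 / 2 * (L : ℝ) ^ (-(5 / 2) : ℝ) = p - c3 / 2 * (L : ℝ) ^ (-(5 / 2) : ℝ) := by
      rw [hpe]
      ring
    rw [e] at hn'
    exact hn'

end Vale.Agent.P146.R2.H729
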