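import Vale.Agent.P146.Bdl.B2
import Vale.Agent.P146.R2.H432.Cheb

/-!
# P146: transport of the disorder by polynomials of the matrix; definitions and elementary rows
-/

open MeasureTheory ProbabilityTheory Matrix Filter Topology
open scoped Matrix.Norms.L2Operator

namespace Vale.Agent.P146.R2.H729.Tr

open Vale.Agent.P146.R2.H432 (cheb)
open Vale.Agent.P146.Sk (Wm Ix)
open Vale.Agent.P157.Lv (gI)

/-- `h(A) = ∑_{k < L} c_k U_{k+1}(A)` -/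
noncomputable def hm (L : ℕ) (c : ℕ → ℝ) {N : ℕ} (A : Matrix (Fin N) (Fin N) ℝ) :
    Matrix (Fin N) (Fin N) ℝ :=
  ∑ k ∈ Finset.range L, c k • cheb (k + 1) A

/-- The transport `z ↦ z - η √(N/2) h(W(z))`, so that `W` becomes `W - η h(W)`. -/
noncomputable def TT (L : ℕ) (c : ℕ → ℝ) (η : ℝ) (N : ℕ) (z : Ix N → ℝ) : Ix N → ℝ :=
  fun e => z e - η * (√((N : ℝ) / 2) * hm L c (Wm N z) e.1 e.2)

/-- The Jacobian matrix of `z ↦ √(N/2) h(W(z))`, at `W(z) = A`. -/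
noncomputable def KK (L : ℕ) (c : ℕ → ℝ) {N : ℕ} (A : Matrix (Fin N) (Fin N) ℝ) :
    Matrix (Ix N) (Ix N) ℝ :=
  Matrix.of fun e f => 1 / 2 * ∑ k ∈ Finset.range L, c k * ∑ a ∈ Finset.range (k + 1),
    (cheb a A e.1 f.1 * cheb (k - a) A f.2 e.2 + cheb a A e.1 f.2 * cheb (k - a) A f.1 e.2)

/-- Row A: transport of Gaussian measures. -/
def StA : Prop := ∀ {ι : Type} [Fintype ι] [DecidableEq ι] (B A : Set (ι → ℝ))
  (T : (ι → ℝ) → ι → ℝ) (M : (ι → ℝ) → Matrix ι ι ℝ) (c : ℝ), MeasurableSet B → MeasurableSet A →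
  (∀ z, HasFDerivAt T (LinearMap.toContinuousLinearMap (Matrix.toLin' (M z))) z) →
  Set.InjOn T B → Set.MapsTo T B A →
  (∀ z ∈ B, (M z).det ≠ 0 ∧
    -c ≤ Real.log |(M z).det| + (∑ i, z i ^ 2 - ∑ i, T z i ^ 2) / 2) →
  Real.exp (-c) * (gI ι).real B ≤ (gI ι).real A

/-- Row B: the determinant. -/
def StB : Prop := ∀ {κ : Type} [Fintype κ] [DecidableEq κ] (K : Matrix κ κ ℝ), K.IsSymm →
  (∀ x : κ → ℝ, ∑ e, (K *ᵥ x) e ^ 2 ≤ 1 / 4 * ∑ e, x e ^ 2) →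
  (1 - K).det ≠ 0 ∧ -K.trace - (K * K).trace ≤ Real.log |(1 - K).det|

/-- Row C: the derivative of the transport. -/
def StC : Prop := ∀ (L : ℕ) (c : ℕ → ℝ) (η : ℝ) (N : ℕ) (z : Ix N → ℝ),
  HasFDerivAt (TT L c η N)
    (LinearMap.toContinuousLinearMap (Matrix.toLin' (1 - η • KK L c (Wm N z)))) z

/-- Row D: the traces. -/
def StD : Prop := ∀ (L : ℕ) (c : ℕ → ℝ) {N : ℕ} (A : Matrix (Fin N) (Fin N) ℝ), A.IsSymm →
  (KK L c A).IsSymm ∧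
  (KK L c A).trace = 1 / 2 * ∑ k ∈ Finset.range L, c k * ∑ a ∈ Finset.range (k + 1),
    ((cheb a A).trace * (cheb (k - a) A).trace + (cheb a A * cheb (k - a) A).trace) ∧
  (KK L c A * KK L c A).trace = 1 / 4 * ∑ k ∈ Finset.range L, ∑ l ∈ Finset.range L, c k * c l *
    ∑ a ∈ Finset.range (k + 1), ∑ b ∈ Finset.range (l + 1),
      ((cheb a A * cheb b A).trace * (cheb (k - a) A * cheb (l - b) A).trace +
        (cheb a A * cheb (l - b) A).trace * (cheb (k - a) A * cheb b A).trace +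
        (cheb a A * cheb b A * cheb (k - a) A * cheb (l - b) A).trace +
        (cheb a A * cheb (l - b) A * cheb (k - a) A * cheb b A).trace)

/-- Row E: Hilbert-Schmidt bounds. -/
def StE : Prop := ∀ (L : ℕ) (c : ℕ → ℝ), ∃ C : ℝ, 0 < C ∧ ∀ (N : ℕ)
  (A B : Matrix (Fin N) (Fin N) ℝ), A.IsSymm → B.IsSymm → ‖A‖ ≤ 3 → ‖B‖ ≤ 3 →
  (∀ x : Ix N → ℝ, ∑ e, (KK L c A *ᵥ x) e ^ 2 ≤ C * ∑ e, x e ^ 2) ∧
  ∑ i, ∑ j, (hm L c A i j - hm L c B i j) ^ 2 ≤ C * ∑ i, ∑ j, (A i j - B i j) ^ 2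

end Vale.Agent.P146.R2.H729.Tr
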